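import Vale.Agent.P007.Ne
import Vale.Agent.P007.Fld

open MeasureTheory Filter Topology Vale.Agent.P007

theorem Vale.Agent.Results.P007.Composite.result (n : ℕ) (hn : 4 ≤ n) (hc : ¬ n.Prime) :
    ∃ (K : ℕ → Type) (_ : ∀ i, Field (K i)) (_ : ∀ i, NumberField (K i)),
      (∀ i, NumberField.IsTotallyReal (K i)) ∧ (∀ i, Module.finrank ℚ (K i) = n) ∧
      Tendsto (fun i => |NumberField.discr (K i)|) atTop atTop ∧
      (∀ i, Nonempty (Fin n ≃ (K i →+* ℝ))) ∧
      ∃ f : CompactlySupportedContinuousMap (X n) ℝ,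
        ∀ σ : ∀ i, Fin n ≃ (K i →+* ℝ),
          (∀ i, (packet (maxOrd (K i)) (σ i)).Nonempty) ∧
          ∀ m : Measure (X n), IsProbabilityMeasure m → (∀ g, m.map (act g) = m) →
            ∀ μ : ℕ → Measure (X n), (∀ i, μ i (packet (maxOrd (K i)) (σ i))ᶜ = 0) →
              0 < ∫ x, f x ∂m ∧ (∀ i, ∫ x, f x ∂(μ i) = 0) ∧
              ¬ Tendsto (fun i => ∫ x, f x ∂(μ i)) atTop (𝓝 (∫ x, f x ∂m)) := by
  obtain ⟨g, hg, H⟩ := exists_fields n (by omega) hc
  choose K i1 i2 h1 h2 h3 θ h4 h5 h6 using H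
  obtain ⟨f, f1, f2⟩ := criterion (n := n) (by omega) g hg
  refine ⟨K, i1, i2, h1, h2, tendsto_atTop_mono h3 tendsto_natCast_atTop_atTop, fun i => ?_, f,
    fun σ => ⟨fun i => packet_nonempty (by omega) (h2 i) (σ i), fun m hm hinv μ hμ => ?_⟩⟩
  · have := h1 i
    rw [← h2 i]; exact nonempty_ord (K i)
  · have a := f1 m hm hinv
    have b : ∀ i, ∫ x, f x ∂(μ i) = 0 := fun i => by
      refine integral_eq_zero_of_ae (measure_mono_null ?_ (hμ i))
      intro x hx hx'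
      exact hx (f2 (K i) _ (σ i) (θ i) (h4 i) (h5 i) (h6 i) x hx')
    refine ⟨a, b, fun c => ?_⟩
    simp only [b] at c
    exact a.ne (tendsto_nhds_unique tendsto_const_nhds c)
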